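import Vale.Agent.P207.N4.Dim
import Vale.Agent.P207.N4.Top.Defs

/-!
# P207, line N3: closed orbits: powers, flip, conjugates, return map and normal form
-/

open Set Filter Topology Metric MeasureTheory
open scoped ContDiff

noncomputable section

namespace Vale.Agent.P207.N4

open Vale.Agent.P207.N3

variable [Dim]

variable {Γ X B : Type} [Group Γ] [MetricSpace X] [ProperSpace X] [MulAction Γ X]
  [IsIsometricSMul Γ X] [TopologicalSpace B] [CompactSpace B] [T2Space B] [MulAction Γ B]
  [ContinuousConstSMul Γ B]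

namespace Orb

variable {L : Leaf Γ X B}

theorem smul_x (o : Orb L) : o.β • o.x = L.φ o.l (L.rot o.a o.x) := o.ax.eq

theorem ep_φ' (t : ℝ) (x : X) : L.ep (L.φ t x) = L.ep x := by
  rw [L.ep_flip, L.flip_φ, L.em_φ, ← L.ep_flip]

theorem ep_rot' (a : O2) (x : X) : L.ep (L.rot a x) = L.ep x := by
  rw [L.ep_flip, L.flip_rot, L.em_rot, ← L.ep_flip]

theorem ep_smul' (g : Γ) (x : X) : L.ep (g • x) = g • L.ep x := by
  rw [L.ep_flip, L.flip_smul, L.em_smul, ← L.ep_flip]

theorem smul_neg (o : Orb L) : o.β • o.neg = o.neg := by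
  have h := congrArg L.em o.smul_x
  rw [L.em_smul, L.em_φ, L.em_rot] at h
  exact h

theorem smul_pos (o : Orb L) : o.β • o.pos = o.pos := by
  have h := congrArg L.ep o.smul_x
  rw [ep_smul', ep_φ', ep_rot'] at h
  exact h

theorem neg_ne_pos (o : Orb L) : o.neg ≠ o.pos := L.em_ne_ep o.x

/-- the level of `β • x` is the level of `x` plus `l` -/
theorem lv_smul_x (o : Orb L) : L.lv (o.β • o.x) = L.lv o.x + o.l := by
  rw [o.smul_x, L.lv_φ, L.lv_rot]

/-- the conjugate orbit -/
def conj (o : Orb L) (k : Γ) : Orb L where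
  β := k * o.β * k⁻¹
  x := k • o.x
  l := o.l
  a := o.a
  ax := by
    refine ⟨o.ax.pos, ?_⟩
    rw [mul_smul, mul_smul, inv_smul_smul, o.smul_x, L.rot_smul, L.φ_smul]

/-- the orbit with the reversed orientation -/
def flip (o : Orb L) : Orb L where
  β := o.β⁻¹
  x := L.flip o.x
  l := o.l
  a := o.a⁻¹
  ax := by
    refine ⟨o.ax.pos, ?_⟩
    have h : o.β⁻¹ • o.x = L.φ (-o.l) (L.rot o.a⁻¹ o.x) := by
      rw [inv_smul_eq_iff, ← L.φ_smul, ← L.rot_smul, o.smul_x, L.rot_φ, ← L.rot_mul,
        mul_inv_cancel, L.rot_one, ← L.φ_add]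
      simp [L.φ_zero]
    rw [← L.flip_smul, h, L.flip_φ, L.flip_rot, neg_neg]

/-- the `n`-fold orbit -/
def pow (o : Orb L) (n : ℕ) (hn : 0 < n) : Orb L where
  β := o.β ^ n
  x := o.x
  l := n * o.l
  a := o.a ^ n
  ax := by
    refine ⟨by have := o.ax.pos; positivity, ?_⟩
    clear hn
    induction n with
    | zero => simp [L.φ_zero, L.rot_one]
    | succ n ih =>
      rw [pow_succ', mul_smul, ih, ← L.φ_smul, ← L.rot_smul, o.smul_x, L.rot_φ, ← L.φ_add,
        pow_succ', ← L.rot_mul]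
      congr 1
      push_cast
      ring

/-- period and holonomy are determined by the element and the frame -/
theorem l_unique (o o' : Orb L) (hβ : o.β = o'.β) (hx : o.x = o'.x) : o.l = o'.l := by
  have h1 := o.lv_smul_x
  have h2 := o'.lv_smul_x
  rw [hβ, hx] at h1
  linarith

theorem ne_one (o : Orb L) : o.β ≠ 1 := by
  intro h
  have h1 := o.lv_smul_x
  rw [h, one_smul] at h1
  have := o.ax.pos
  linarith

end Orb

end Vale.Agent.P207.N4
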